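import Mathlib

/-! Definitions for P331: single-sample online rules on a finite matroid. -/

namespace Vale.Agent.P331

open MeasureTheory
open scoped NNReal ENNReal

/-- An arrival order: a list containing every element exactly once. -/
def Order (α : Type) : Type := {l : List α // l.Nodup ∧ ∀ e, e ∈ l}

/-- Orders form a finite set, given the discrete sigma-algebra. -/
instance (α : Type) : MeasurableSpace (Order α) := ⊤

/-- The elements that arrive strictly before `e`, in their order of arrival. -/
def before {α : Type} [DecidableEq α] (π : Order α) (e : α) : List α :=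
  π.1.takeWhile (fun f => decide (f ≠ e))

/-- The offline optimum: the largest total value of an independent set. -/
noncomputable def opt {α : Type} (M : Matroid α) (v : α → ℝ≥0) : ℝ≥0∞ :=
  ⨆ (I : Finset α) (_ : M.Indep (I : Set α)), ∑ e ∈ I, (v e : ℝ≥0∞)

/-- An online rule with seed space `Ω`. `accept S r past e V` is the irrevocable decision on `e`
when it arrives after the list `past`, given the samples `S` and the seed `r`; of the values `V`
it may use only those of `past` and of `e`. -/
structure Rule {α : Type} [Fintype α] [DecidableEq α] (M : Matroid α) (Ω : Type)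
    [MeasurableSpace Ω] where
  accept : (α → ℝ≥0) → Ω → List α → α → (α → ℝ≥0) → Bool
  online : ∀ S r past e V V', (∀ f ∈ past, V f = V' f) → V e = V' e →
    accept S r past e V = accept S r past e V'
  meas : ∀ past e, Measurable
    (fun p : ((α → ℝ≥0) × (α → ℝ≥0)) × Ω => accept p.1.1 p.2 past e p.1.2)
  indep : ∀ S r V (π : Order α), M.Indep {e | accept S r (before π e) e V = true}

/-- The total value accepted by the rule on samples `S`, values `V`, seed `r`, order `π`. -/
noncomputable def reward {α : Type} [Fintype α] [DecidableEq α] {M : Matroid α} {Ω : Type}
    [MeasurableSpace Ω] (R : Rule M Ω) (S V : α → ℝ≥0) (r : Ω) (π : Order α) : ℝ≥0∞ :=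
  ∑ e ∈ Finset.univ.filter (fun e => R.accept S r (before π e) e V = true), (V e : ℝ≥0∞)

end Vale.Agent.P331
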