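import Mathlib

/-! The greedy basis of a finite matroid for an injective key, and its exchange property. -/

namespace Vale.Agent.P331

open Set

variable {α K : Type} [Fintype α] [LinearOrder K]

/-- Elements not spanned by the elements of strictly larger key. -/
def gb (M : Matroid α) (k : α → K) : Set α := {g | g ∉ M.closure {h | k g < k h}}

lemma mem_closure_gb (M : Matroid α) (hE : M.E = univ) (k : α → K) (g : α) :
    g ∈ M.closure (gb M k ∩ {h | k g ≤ k h}) := by
  have wf : WellFounded (fun a b : α => k b < k a) := by
    have : IsStrictOrder α (fun a b : α => k b < k a) :=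
      { irrefl := fun a => lt_irrefl _
        trans := fun a b c h1 h2 => lt_trans h2 h1 }
    exact Finite.wellFounded_of_trans_of_irrefl _
  induction g using wf.induction with
  | _ g ih =>
    by_cases hg : g ∈ gb M k
    · exact M.mem_closure_of_mem' ⟨hg, le_refl (k g)⟩ (by simp [hE])
    · have h1 : g ∈ M.closure {h | k g < k h} := by simpa [gb] using hg
      refine M.closure_subset_closure_of_subset_closure ?_ h1
      intro h hh
      refine M.closure_subset_closure ?_ (ih h hh)
      intro x hx
      exact ⟨hx.1, le_trans (le_of_lt hh) hx.2⟩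

lemma closure_above_subset (M : Matroid α) (hE : M.E = univ) (k : α → K) (g : α) :
    M.closure {h | k g < k h} ⊆ M.closure (gb M k ∩ {h | k g < k h}) := by
  refine M.closure_subset_closure_of_subset_closure ?_
  intro h hh
  refine M.closure_subset_closure ?_ (mem_closure_gb M hE k h)
  intro x hx
  exact ⟨hx.1, lt_of_lt_of_le hh hx.2⟩

omit [Fintype α] in
lemma indep_of_ordered (M : Matroid α) (hE : M.E = univ) (k : α → K) (hk : Function.Injective k)
    (I : Finset α) (hI : ∀ g ∈ I, g ∉ M.closure ((I : Set α) ∩ {h | k g < k h})) :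
    M.Indep (I : Set α) := by
  classical
  induction I using Finset.induction_on_min_value k with
  | empty => simp
  | insert a s has hmin ih =>
    have hs : M.Indep (s : Set α) := by
      apply ih
      intro g hg hcl
      refine hI g (Finset.mem_insert_of_mem hg) (M.closure_subset_closure ?_ hcl)
      intro x hx
      exact ⟨by simp [show x ∈ s from hx.1], hx.2⟩
    rw [Finset.coe_insert, hs.insert_indep_iff_of_notMem (by simpa using has)]
    refine ⟨by simp [hE], fun hcl => hI a (Finset.mem_insert_self _ _)
      (M.closure_subset_closure ?_ hcl)⟩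
    intro x hx
    refine ⟨by simp [show x ∈ s from hx], ?_⟩
    refine lt_of_le_of_ne (hmin x hx) (fun h => has ?_)
    rw [hk h]; exact hx

lemma gb_indep (M : Matroid α) (hE : M.E = univ) (k : α → K) (hk : Function.Injective k) :
    M.Indep (gb M k) := by
  classical
  have := indep_of_ordered M hE k hk (gb M k).toFinset (by
    intro g hg hcl
    have hg' : g ∈ gb M k := by simpa using hg
    exact hg' (M.closure_subset_closure inter_subset_right hcl))
  simpa using this

/-- The greedy basis has maximum weight when the weight is monotone in the key. -/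
lemma gb_opt (M : Matroid α) (hE : M.E = univ) (k : α → K) (w : α → ENNReal)
    (hw : ∀ a b, k a < k b → w a ≤ w b) [DecidablePred (· ∈ gb M k)]
    (I : Finset α) (hI : M.Indep (I : Set α)) :
    ∑ e ∈ I, w e ≤ ∑ e ∈ Finset.univ.filter (· ∈ gb M k), w e := by
  classical
  induction hn : (I.filter (· ∉ gb M k)).card generalizing I with
  | zero =>
    apply Finset.sum_le_sum_of_subset
    intro x hx
    simp only [Finset.mem_filter, Finset.mem_univ, true_and]
    by_contra h
    have : x ∈ I.filter (· ∉ gb M k) := Finset.mem_filter.2 ⟨hx, h⟩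
    rw [Finset.card_eq_zero.1 hn] at this
    simp at this
  | succ n ih =>
    obtain ⟨g, hg⟩ : (I.filter (· ∉ gb M k)).Nonempty := by
      rw [← Finset.card_pos, hn]; omega
    obtain ⟨hgI, hgB⟩ := Finset.mem_filter.1 hg
    have h1 : g ∈ M.closure (gb M k ∩ {h | k g < k h}) :=
      closure_above_subset M hE k g (by simpa [gb] using hgB)
    have h2 : g ∉ M.closure ((I : Set α) \ {g}) := hI.notMem_closure_sdiff_of_mem hgI
    have h3 : ∃ b ∈ gb M k ∩ {h | k g < k h}, b ∉ M.closure ((I : Set α) \ {g}) := by
      by_contra hcon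
      push Not at hcon
      exact h2 (M.closure_subset_closure_of_subset_closure hcon h1)
    obtain ⟨b, ⟨hbB, hbk⟩, hb⟩ := h3
    have hbI : b ∉ (I : Set α) \ {g} := fun h => hb (M.mem_closure_of_mem' h (by simp [hE]))
    have hbI' : b ∉ I.erase g := by
      intro h; apply hbI; simpa [and_comm] using h
    have hind : M.Indep ((insert b (I.erase g) : Finset α) : Set α) := by
      rw [Finset.coe_insert, Finset.coe_erase,
        (hI.subset sdiff_subset).insert_indep_iff_of_notMem hbI]
      exact ⟨by simp [hE], hb⟩
    have hcard : ((insert b (I.erase g)).filter (· ∉ gb M k)).card = n := by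
      have : (insert b (I.erase g)).filter (· ∉ gb M k) = (I.filter (· ∉ gb M k)).erase g := by
        ext x
        simp only [Finset.mem_filter, Finset.mem_insert, Finset.mem_erase]
        constructor
        · rintro ⟨rfl | ⟨h1, h2⟩, h3⟩
          · exact absurd hbB h3
          · exact ⟨h1, h2, h3⟩
        · rintro ⟨h1, h2, h3⟩
          exact ⟨Or.inr ⟨h1, h2⟩, h3⟩
      rw [this, Finset.card_erase_of_mem hg, hn]; rfl
    refine le_trans ?_ (ih _ hind hcard)
    rw [Finset.sum_insert hbI', ← Finset.add_sum_erase I w hgI]
    exact add_le_add_left (hw g b hbk) _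

/-- Two keys that agree off `e`: the greedy bases differ, off `e`, in at most one element. -/
lemma gb_exchange (M : Matroid α) (hE : M.E = univ) (k k' : α → K) (hk : Function.Injective k)
    (hk' : Function.Injective k') (e : α) (hkk : ∀ g, g ≠ e → k g = k' g) :
    ((∀ g, g ≠ e → (g ∈ gb M k ↔ g ∈ gb M k')) ∧ (e ∈ gb M k ↔ e ∈ gb M k')) ∨
    ∃ f, f ≠ e ∧ (∀ g, g ≠ e → g ≠ f → (g ∈ gb M k ↔ g ∈ gb M k')) ∧
      (f ∈ gb M k ↔ e ∉ gb M k) ∧ (f ∈ gb M k' ↔ e ∉ gb M k') ∧
      ¬ (e ∈ gb M k ↔ e ∈ gb M k') := by
  classical
  set H : α → Set α := fun g => {h | h ≠ e ∧ k g < k h} with hH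
  -- description of the set above `g` for any key agreeing with `k` off `e`
  have above : ∀ (q : α → K), (∀ g, g ≠ e → k g = q g) → ∀ g, g ≠ e →
      ({h | q g < q h} = if q g < q e then insert e (H g) else H g) := by
    intro q hq g hg
    ext h
    by_cases hhe : h = e
    · subst hhe
      split_ifs with hc <;> simp [hH, hc]
    · split_ifs with hc <;> simp [hH, hhe, hq g hg, hq h hhe]
  -- the critical elements
  have key : ∀ f, f ≠ e → f ∉ M.closure (H f) → f ∈ M.closure (insert e (H f)) →
      ∀ (q : α → K), Function.Injective q → (∀ g, g ≠ e → k g = q g) →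
        ((f ∈ gb M q ↔ q e < q f) ∧ (e ∈ gb M q ↔ q f < q e)) := by
    intro f hf h0 h1 q hq hkq
    have hex : e ∈ M.closure (insert f (H f)) \ M.closure (H f) := M.closure_exchange ⟨h1, h0⟩
    have hne : q f ≠ q e := fun h => hf (hq h)
    constructor
    · simp only [gb, mem_ofPred_eq]
      rw [above q hkq f hf]
      split_ifs with hc
      · simp [h1, not_lt.2 hc.le]
      · simp [h0, lt_of_le_of_ne (not_lt.1 hc) hne.symm]
    · simp only [gb, mem_ofPred_eq]
      constructor
      · intro h
        by_contra hc
        have hlt : q e < q f := lt_of_le_of_ne (not_lt.1 hc) hne.symm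
        apply h
        refine M.closure_subset_closure ?_ hex.1
        rintro x (rfl | hx)
        · exact hlt
        · have := hx.2
          rw [hkq f hf, hkq x hx.1] at this
          exact lt_trans hlt this
      · intro hlt h
        apply hex.2
        refine M.closure_subset_closure ?_ h
        intro x hx
        have hxe : x ≠ e := by
          rintro rfl
          exact lt_irrefl _ hx
        refine ⟨hxe, ?_⟩
        rw [hkq f hf, hkq x hxe]
        exact lt_trans hlt hx
  have uniq : ∀ f g, f ≠ e → g ≠ e → f ∉ M.closure (H f) → f ∈ M.closure (insert e (H f)) →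
      g ∉ M.closure (H g) → g ∈ M.closure (insert e (H g)) → ¬ k g < k f := by
    intro f g hf hg h0 h1 h2 h3 hlt
    have hex : e ∈ M.closure (insert f (H f)) \ M.closure (H f) := M.closure_exchange ⟨h1, h0⟩
    have : e ∈ M.closure (H g) := by
      refine M.closure_subset_closure ?_ hex.1
      rintro x (rfl | hx)
      · exact ⟨hf, hlt⟩
      · exact ⟨hx.1, lt_trans hlt hx.2⟩
    rw [M.closure_insert_eq_of_mem_closure this] at h3
    exact h2 h3
  -- an element whose status differs is critical
  have crit : ∀ g, g ≠ e → ¬ (g ∈ gb M k ↔ g ∈ gb M k') →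
      g ∉ M.closure (H g) ∧ g ∈ M.closure (insert e (H g)) := by
    intro g hg hne
    have hsub : M.closure (H g) ⊆ M.closure (insert e (H g)) :=
      M.closure_subset_closure (subset_insert _ _)
    simp only [gb, mem_ofPred_eq] at hne
    rw [above k (fun _ _ => rfl) g hg, above k' hkk g hg] at hne
    split_ifs at hne with h1 h2 h2
    · exact absurd Iff.rfl hne
    · have := @hsub g
      tauto
    · have := @hsub g
      tauto
    · exact absurd Iff.rfl hne
  by_cases hall : ∀ g, g ≠ e → (g ∈ gb M k ↔ g ∈ gb M k')
  · left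
    refine ⟨hall, ?_⟩
    have aux : ∀ (q q' : α → K), Function.Injective q →
        (∀ g, g ≠ e → (g ∈ gb M q ↔ g ∈ gb M q')) → e ∈ gb M q → e ∈ gb M q' := by
      intro q q' hq hqq he
      by_contra he'
      have h1 := (gb_indep M hE q hq).notMem_closure_sdiff_of_mem he
      apply h1
      refine M.closure_subset_closure ?_ (mem_closure_gb M hE q' e)
      intro x hx
      have hxe : x ≠ e := by
        rintro rfl
        exact he' hx.1
      exact ⟨(hqq x hxe).2 hx.1, hxe⟩
    exact ⟨aux k k' hk hall, aux k' k hk' (fun g hg => (hall g hg).symm)⟩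
  · right
    push Not at hall
    obtain ⟨f, hf, hfne⟩ := hall
    have hfne' : ¬ (f ∈ gb M k ↔ f ∈ gb M k') := by tauto
    obtain ⟨h0, h1⟩ := crit f hf hfne'
    have K1 := key f hf h0 h1 k hk (fun _ _ => rfl)
    have K2 := key f hf h0 h1 k' hk' hkk
    have n1 : k f ≠ k e := fun h => hf (hk h)
    have n2 : k' f ≠ k' e := fun h => hf (hk' h)
    have t1 : k e < k f ↔ ¬ k f < k e := by
      constructor
      · intro h; exact not_lt.2 h.le
      · intro h; exact lt_of_le_of_ne (not_lt.1 h) n1.symm
    have t2 : k' e < k' f ↔ ¬ k' f < k' e := by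
      constructor
      · intro h; exact not_lt.2 h.le
      · intro h; exact lt_of_le_of_ne (not_lt.1 h) n2.symm
    refine ⟨f, hf, ?_, ?_, ?_, ?_⟩
    · intro g hg hgf
      by_contra hne
      obtain ⟨h2, h3⟩ := crit g hg hne
      have a1 := uniq f g hf hg h0 h1 h2 h3
      have a2 := uniq g f hg hf h2 h3 h0 h1
      exact hgf (hk (le_antisymm (not_lt.1 a2) (not_lt.1 a1)))
    · rw [K1.1, K1.2, t1]
    · rw [K2.1, K2.2, t2]
    · rw [K1.1, K2.1, t1, t2] at hfne'
      rw [K1.2, K2.2]
      tauto

end Vale.Agent.P331
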