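import Mathlib
import Vale.Agent.P331.Greedy

/-! The reversible exchange step and its invariant. -/

namespace Vale.Agent.P331

open Set
open scoped NNReal ENNReal Classical

variable {α : Type} [Fintype α] [DecidableEq α]

noncomputable def key (val : α → Bool → ℝ≥0) (x : α → Bool) (e : α) : Lex (ℝ≥0 × ℕ) :=
  toLex (val e (x e), (Fintype.equivFin α e : ℕ))

omit [DecidableEq α] in
lemma key_inj (val : α → Bool → ℝ≥0) (x : α → Bool) : Function.Injective (key val x) := by
  intro a b h
  have h2 : ((Fintype.equivFin α a : ℕ)) = (Fintype.equivFin α b : ℕ) :=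
    congrArg (fun p => (ofLex p).2) h
  exact (Fintype.equivFin α).injective (Fin.ext h2)

noncomputable def bv (M : Matroid α) (val : α → Bool → ℝ≥0) (x : α → Bool) : α → Bool :=
  fun g => decide (g ∈ gb M (key val x))

def flip (x : α → Bool) (e : α) : α → Bool := Function.update x e (!x e)

abbrev St (α : Type) := (α → Bool) × (α → Bool)

noncomputable def pick (BX BY : α → Bool) (e : α) : α :=
  if h : ∃ f, f ≠ e ∧ BX f ≠ BY f then h.choose else e

noncomputable def stepB (BX BY : α → Bool) (e : α) (st : St α) : St α :=
  if BX e then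
    if BY e then (if st.2 e then (flip st.1 e, st.2) else st)
    else (if st.2 e then
      (flip st.1 e, Function.update (Function.update st.2 e (st.2 (pick BX BY e))) (pick BX BY e) false)
      else st)
  else if BY e then
    (if st.2 (pick BX BY e) then st else
      (flip st.1 e, Function.update (Function.update st.2 (pick BX BY e) (st.2 e)) e true))
  else st

noncomputable def step (M : Matroid α) (val : α → Bool → ℝ≥0) (e : α) (st : St α) : St α :=
  stepB (bv M val st.1) (bv M val (flip st.1 e)) e st

/-- Membership in the thinned greedy basis of the state. -/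
noncomputable def good (M : Matroid α) (val : α → Bool → ℝ≥0) (st : St α) (g : α) : Bool :=
  bv M val st.1 g && st.2 g

noncomputable def run (M : Matroid α) (val : α → Bool → ℝ≥0) (l : List α) (st : St α) : St α :=
  l.foldl (fun s e => step M val e s) st

omit [Fintype α] in
lemma flip_flip (x : α → Bool) (e : α) : flip (flip x e) e = x := by
  funext g
  by_cases h : g = e
  · subst h; simp [flip]
  · simp [flip, h]

omit [Fintype α] in
lemma flip_ne (x : α → Bool) {e g : α} (h : g ≠ e) : flip x e g = x g := by simp [flip, h]

omit [Fintype α] in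
lemma flip_self (x : α → Bool) (e : α) : flip x e e = !x e := by simp [flip]

/-- Boolean form of the exchange property. -/
def Exch (BX BY : α → Bool) (e : α) : Prop :=
  (BX = BY) ∨ ∃ f, f ≠ e ∧ (∀ g, g ≠ e → g ≠ f → BX g = BY g) ∧ BX f = !BX e ∧ BY f = !BY e ∧
    BX e = !BY e

lemma exch_bv (M : Matroid α) (hE : M.E = univ) (val : α → Bool → ℝ≥0) (x : α → Bool) (e : α) :
    Exch (bv M val x) (bv M val (flip x e)) e := by
  rcases gb_exchange M hE (key val x) (key val (flip x e)) (key_inj _ _) (key_inj _ _) e
    (fun g hg => by simp [key, flip_ne x hg]) with ⟨h1, h2⟩ | ⟨f, hf, h1, h2, h3, h4⟩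
  · left
    funext g
    by_cases hg : g = e
    · subst hg; simp [bv, h2]
    · simp [bv, h1 g hg]
  · right
    refine ⟨f, hf, fun g hg hgf => by simp [bv, h1 g hg hgf], by simp [bv, h2], by simp [bv, h3], ?_⟩
    simp only [bv]
    by_cases a : e ∈ gb M (key val x) <;> by_cases b : e ∈ gb M (key val (flip x e)) <;>
      simp_all

omit [Fintype α] [DecidableEq α] in
lemma Exch.symm {BX BY : α → Bool} {e : α} (h : Exch BX BY e) : Exch BY BX e := by
  rcases h with h | ⟨f, hf, h1, h2, h3, h4⟩
  · exact Or.inl h.symm
  · exact Or.inr ⟨f, hf, fun g a b => (h1 g a b).symm, h3, h2, by simp [h4]⟩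

lemma pick_eq {BX BY : α → Bool} {e f : α} (hf : f ≠ e)
    (h1 : ∀ g, g ≠ e → g ≠ f → BX g = BY g) (h2 : BX f ≠ BY f) : pick BX BY e = f := by
  have hex : ∃ f, f ≠ e ∧ BX f ≠ BY f := ⟨f, hf, h2⟩
  simp only [pick, dif_pos hex]
  by_contra hne
  exact hex.choose_spec.2 (h1 _ hex.choose_spec.1 hne)

lemma step_fst (M : Matroid α) (val : α → Bool → ℝ≥0) (e : α) (st : St α) :
    (step M val e st).1 = st.1 ∨ (step M val e st).1 = flip st.1 e := by
  unfold step stepB
  split_ifs <;> simp

lemma step_fst_ne (M : Matroid α) (val : α → Bool → ℝ≥0) (e : α) (st : St α) {g : α}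
    (hg : g ≠ e) : (step M val e st).1 g = st.1 g := by
  rcases step_fst M val e st with h | h <;> simp [h, flip_ne _ hg]

lemma step_invol (M : Matroid α) (hE : M.E = univ) (val : α → Bool → ℝ≥0) (e : α) :
    Function.Involutive (step M val e) := by
  rintro ⟨x, c⟩
  have hex := exch_bv M hE val x e
  rcases hex with h | ⟨f, hf, h1, h2, h3, h4⟩
  · cases hb : bv M val x e <;> cases hc : c e <;>
      simp [step, stepB, ← h, hb, hc, flip_flip]
  · have hp : pick (bv M val x) (bv M val (flip x e)) e = f :=
      pick_eq hf h1 (by rw [h2, h3, h4]; simp)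
    have hp' : pick (bv M val (flip x e)) (bv M val x) e = f :=
      pick_eq hf (fun g a b => (h1 g a b).symm) (by rw [h2, h3, h4]; simp)
    cases hb : bv M val (flip x e) e <;> cases hc : c e <;> cases hcf : c f <;>
      simp [step, stepB, h4, hb, hc, hcf, hp, hp', flip_flip, Function.update_of_ne hf,
        Function.update_of_ne hf.symm] <;>
      (funext g; by_cases a : g = e <;> by_cases b : g = f <;>
        simp_all [Function.update_apply])

lemma step_good_ne (M : Matroid α) (hE : M.E = univ) (val : α → Bool → ℝ≥0) (e : α) (st : St α)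
    {g : α} (hg : g ≠ e) : good M val (step M val e st) g = good M val st g := by
  obtain ⟨x, c⟩ := st
  have hex := exch_bv M hE val x e
  rcases hex with h | ⟨f, hf, h1, h2, h3, h4⟩
  · cases hb : bv M val x e <;> cases hc : c e <;>
      simp [good, step, stepB, ← h, hb, hc]
  · have hp : pick (bv M val x) (bv M val (flip x e)) e = f :=
      pick_eq hf h1 (by rw [h2, h3, h4]; simp)
    by_cases hgf : g = f
    · subst hgf
      cases hb : bv M val (flip x e) e <;> cases hc : c e <;> cases hcf : c g <;>
        simp [good, step, stepB, h2, h3, h4, hb, hc, hcf, hp, Function.update_of_ne hf]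
    · cases hb : bv M val (flip x e) e <;> cases hc : c e <;> cases hcf : c f <;>
        simp [good, step, stepB, h4, hb, hc, hcf, hp, h1 g hg hgf, Function.update_of_ne hg,
          Function.update_of_ne hgf]

lemma step_good_self (M : Matroid α) (val : α → Bool → ℝ≥0) (e : α) (st : St α)
    (h : good M val (step M val e st) e = true) : (step M val e st).1 e = !st.1 e := by
  obtain ⟨x, c⟩ := st
  revert h
  unfold good step stepB
  split_ifs <;> simp_all [flip_self]

lemma run_bij (M : Matroid α) (hE : M.E = univ) (val : α → Bool → ℝ≥0) (l : List α) :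
    Function.Bijective (run M val l) := by
  induction l with
  | nil => exact Function.bijective_id
  | cons e l ih => exact ih.comp (step_invol M hE val e).bijective

lemma run_notMem (M : Matroid α) (hE : M.E = univ) (val : α → Bool → ℝ≥0) (l : List α) {g : α}
    (hg : g ∉ l) (st : St α) :
    good M val (run M val l st) g = good M val st g ∧ (run M val l st).1 g = st.1 g := by
  induction l generalizing st with
  | nil => exact ⟨rfl, rfl⟩
  | cons e l ih =>
    have hge : g ≠ e := fun h => hg (h ▸ List.mem_cons_self)
    have := ih (fun h => hg (List.mem_cons_of_mem _ h)) (step M val e st)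
    exact ⟨this.1.trans (step_good_ne M hE val e st hge), this.2.trans (step_fst_ne M val e st hge)⟩

/-- The decision on `e` after the arrivals `past`. -/
noncomputable def acc (M : Matroid α) (val : α → Bool → ℝ≥0) (past : List α) (e : α)
    (st : St α) : Bool :=
  good M val (step M val e (run M val past st)) e

lemma acc_final (M : Matroid α) (hE : M.E = univ) (val : α → Bool → ℝ≥0) (l : List α)
    (hl : l.Nodup) {e : α} (he : e ∈ l) (st : St α) :
    acc M val (l.takeWhile (fun f => decide (f ≠ e))) e st = good M val (run M val l st) e ∧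
    (good M val (run M val l st) e = true → (run M val l st).1 e = !st.1 e) := by
  obtain ⟨s, t, rfl, hs⟩ := List.eq_append_cons_of_mem he
  have ht : e ∉ t := by
    have := (List.nodup_append.1 hl).2.1
    exact (List.nodup_cons.1 this).1
  have htw : (s ++ e :: t).takeWhile (fun f => decide (f ≠ e)) = s := by
    rw [List.takeWhile_append_of_pos (by
      intro a ha
      simp only [decide_eq_true_eq]
      rintro rfl
      exact hs ha)]
    simp
  have hrun : run M val (s ++ e :: t) st = run M val t (step M val e (run M val s st)) := by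
    simp [run, List.foldl_append]
  have h1 := run_notMem M hE val t ht (step M val e (run M val s st))
  have h2 := run_notMem M hE val s hs st
  rw [htw, hrun]
  refine ⟨h1.1.symm, fun h => ?_⟩
  rw [h1.2, step_good_self M val e _ (h1.1 ▸ h), h2.2]

/-! Change of orientation. -/

def sw (val : α → Bool → ℝ≥0) (ω : α → Bool) : α → Bool → ℝ≥0 := fun e b => val e (xor b (ω e))

def tr (ω : α → Bool) (st : St α) : St α := (fun e => xor (st.1 e) (ω e), st.2)

omit [DecidableEq α] in
lemma bv_sw (M : Matroid α) (val : α → Bool → ℝ≥0) (ω x : α → Bool) :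
    bv M (sw val ω) x = bv M val (fun e => xor (x e) (ω e)) := rfl

omit [Fintype α] in
lemma flip_xor (ω x : α → Bool) (e : α) :
    (fun g => xor (flip x e g) (ω g)) = flip (fun g => xor (x g) (ω g)) e := by
  funext g
  by_cases h : g = e
  · subst h; simp [flip]
  · simp [flip, h]

omit [Fintype α] in
lemma stepB_tr [Fintype α] (BX BY ω : α → Bool) (e : α) (st : St α) :
    tr ω (stepB BX BY e st) = stepB BX BY e (tr ω st) := by
  obtain ⟨x, c⟩ := st
  cases h1 : BX e <;> cases h2 : BY e <;> cases h3 : c e <;> cases h4 : c (pick BX BY e) <;>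
    simp [stepB, tr, h1, h2, h3, h4, flip_xor]

lemma step_sw (M : Matroid α) (val : α → Bool → ℝ≥0) (ω : α → Bool) (e : α) (st : St α) :
    tr ω (step M (sw val ω) e st) = step M val e (tr ω st) := by
  unfold step
  rw [bv_sw, bv_sw, flip_xor, stepB_tr]
  rfl

lemma run_sw (M : Matroid α) (val : α → Bool → ℝ≥0) (ω : α → Bool) (l : List α) (st : St α) :
    tr ω (run M (sw val ω) l st) = run M val l (tr ω st) := by
  induction l generalizing st with
  | nil => rfl
  | cons e l ih =>
    have := ih (step M (sw val ω) e st)
    rw [step_sw] at this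
    exact this

lemma acc_sw (M : Matroid α) (val : α → Bool → ℝ≥0) (ω : α → Bool) (l : List α) (e : α)
    (st : St α) : acc M (sw val ω) l e st = acc M val l e (tr ω st) := by
  unfold acc
  rw [← run_sw, ← step_sw]
  rfl

end Vale.Agent.P331
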