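import Mathlib
import Vale.Agent.P331.Defs
import Vale.Agent.P331.Step

/-! The rule, its measurability, and the competitive ratio one half. -/

namespace Vale.Agent.P331

open Set MeasureTheory
open scoped NNReal ENNReal Classical

variable {α : Type} [Fintype α] [DecidableEq α]

def valOf (S V : α → ℝ≥0) : α → Bool → ℝ≥0 := fun e b => if b then V e else S e

def st0 (r : α → Bool) : St α := (fun _ => false, r)

/-! Non-anticipation. -/

omit [DecidableEq α] in
lemma bv_congr (M : Matroid α) {val val' : α → Bool → ℝ≥0} {x : α → Bool}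
    (h : ∀ g, val g (x g) = val' g (x g)) : bv M val x = bv M val' x := by
  have : key val x = key val' x := by
    funext g; simp [key, h g]
  unfold bv; rw [this]

lemma step_congr (M : Matroid α) {val val' : α → Bool → ℝ≥0} (e : α) (st : St α)
    (h : ∀ g, val g (st.1 g) = val' g (st.1 g)) (he : ∀ b, val e b = val' e b) :
    step M val e st = step M val' e st ∧
      ∀ g, val g ((step M val e st).1 g) = val' g ((step M val e st).1 g) := by
  have hf : ∀ g, val g (flip st.1 e g) = val' g (flip st.1 e g) := by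
    intro g
    by_cases hg : g = e
    · subst hg; exact he _
    · rw [flip_ne _ hg]; exact h g
  refine ⟨by unfold step; rw [bv_congr M h, bv_congr M hf], ?_⟩
  rcases step_fst M val e st with h1 | h1 <;> rw [h1]
  · exact h
  · exact hf

lemma run_congr (M : Matroid α) {val val' : α → Bool → ℝ≥0} (l : List α) (st : St α)
    (h : ∀ g, val g (st.1 g) = val' g (st.1 g)) (hl : ∀ f ∈ l, ∀ b, val f b = val' f b) :
    run M val l st = run M val' l st ∧
      ∀ g, val g ((run M val l st).1 g) = val' g ((run M val l st).1 g) := by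
  induction l generalizing st with
  | nil => exact ⟨rfl, h⟩
  | cons e l ih =>
    obtain ⟨h1, h2⟩ := step_congr M e st h (hl e List.mem_cons_self)
    have := ih (step M val e st) h2 (fun f hf => hl f (List.mem_cons_of_mem _ hf))
    refine ⟨?_, this.2⟩
    have h3 := this.1
    conv at h3 => rhs; rw [h1]
    exact h3

lemma acc_online (M : Matroid α) (S : α → ℝ≥0) (r : α → Bool) (past : List α) (e : α)
    (V V' : α → ℝ≥0) (h1 : ∀ f ∈ past, V f = V' f) (h2 : V e = V' e) :
    acc M (valOf S V) past e (st0 r) = acc M (valOf S V') past e (st0 r) := by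
  obtain ⟨a1, a2⟩ := run_congr M (val := valOf S V) (val' := valOf S V') past (st0 r)
    (fun g => by simp [valOf, st0]) (fun f hf b => by simp [valOf, h1 f hf])
  obtain ⟨b1, b2⟩ := step_congr M (val := valOf S V) (val' := valOf S V') e _ a2
    (fun b => by simp [valOf, h2])
  unfold acc good
  rw [bv_congr M b2, b1, a1]

/-! Measurability. -/

lemma measurable_comp_countable {Z T U : Type} [MeasurableSpace Z] [MeasurableSpace T]
    [MeasurableSpace U] [Countable T] [MeasurableSingletonClass T] {s : Z → T}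
    (hs : Measurable s) {G : T → Z → U} (hG : ∀ t, Measurable (G t)) :
    Measurable fun z => G (s z) z :=
  (measurable_from_prod_countable_left (f := fun p : Z × T => G p.2 p.1) hG).comp
    (measurable_id.prodMk hs)

abbrev Z (α : Type) := ((α → ℝ≥0) × (α → ℝ≥0)) × (α → Bool)

omit [DecidableEq α] in
lemma measurable_bv (M : Matroid α) (x : α → Bool) :
    Measurable fun z : Z α => bv M (valOf z.1.1 z.1.2) x := by
  have hv : ∀ g b, Measurable fun z : Z α => valOf z.1.1 z.1.2 g b := by
    intro g b
    cases b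
    · show Measurable fun z : Z α => z.1.1 g
      fun_prop
    · show Measurable fun z : Z α => z.1.2 g
      fun_prop
  have hc : Measurable fun z : Z α => (fun g h : α =>
      decide (key (valOf z.1.1 z.1.2) x g < key (valOf z.1.1 z.1.2) x h)) := by
    refine measurable_pi_iff.2 fun g => measurable_pi_iff.2 fun h => ?_
    refine measurable_to_bool ?_
    have : (fun z : Z α => decide (key (valOf z.1.1 z.1.2) x g < key (valOf z.1.1 z.1.2) x h)) ⁻¹'
        {true} = {z | valOf z.1.1 z.1.2 g (x g) < valOf z.1.1 z.1.2 h (x h)} ∪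
          ({z | valOf z.1.1 z.1.2 g (x g) = valOf z.1.1 z.1.2 h (x h)} ∩
            {_z | (Fintype.equivFin α g : ℕ) < (Fintype.equivFin α h : ℕ)}) := by
      ext z
      simp [key, Prod.Lex.lt_iff]
    rw [this]
    exact (measurableSet_lt (hv _ _) (hv _ _)).union
      ((measurableSet_eq_fun (hv _ _) (hv _ _)).inter (MeasurableSet.const _))
  have hΦ : Measurable fun (t : α → α → Bool) => (fun g : α =>
      decide (g ∉ M.closure {h | t g h = true})) := measurable_of_finite _
  have := hΦ.comp hc
  convert this using 1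
  funext z g
  simp only [bv, gb, Function.comp, decide_eq_true_eq]
  exact decide_eq_decide.2 Iff.rfl

lemma measurable_step (M : Matroid α) (e : α) {s : Z α → St α} (hs : Measurable s) :
    Measurable fun z : Z α => step M (valOf z.1.1 z.1.2) e (s z) := by
  refine measurable_comp_countable hs (G := fun t z => step M (valOf z.1.1 z.1.2) e t) ?_
  intro t
  have hΦ : Measurable fun (p : (α → Bool) × (α → Bool)) => stepB p.1 p.2 e t :=
    measurable_of_finite _
  exact hΦ.comp ((measurable_bv M t.1).prodMk (measurable_bv M (flip t.1 e)))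

lemma measurable_run (M : Matroid α) (l : List α) {s : Z α → St α} (hs : Measurable s) :
    Measurable fun z : Z α => run M (valOf z.1.1 z.1.2) l (s z) := by
  induction l generalizing s with
  | nil => exact hs
  | cons e l ih => exact ih (measurable_step M e hs)

lemma measurable_acc (M : Matroid α) (past : List α) (e : α) :
    Measurable fun z : Z α => acc M (valOf z.1.1 z.1.2) past e (st0 z.2) := by
  have h0 : Measurable fun z : Z α => st0 z.2 :=
    (measurable_of_finite (st0 (α := α))).comp measurable_snd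
  have h1 := measurable_step M e (measurable_run M past h0)
  refine measurable_comp_countable h1 (G := fun t z => good M (valOf z.1.1 z.1.2) t e) ?_
  intro t
  have hΦ : Measurable fun (p : α → Bool) => (p e && t.2 e) := measurable_of_finite _
  exact hΦ.comp (measurable_bv M t.1)

/-- The rule. -/
noncomputable def rule (M : Matroid α) (hE : M.E = univ) : Rule M (α → Bool) where
  accept S r past e V := acc M (valOf S V) past e (st0 r)
  online S r past e V V' h1 h2 := acc_online M S r past e V V' h1 h2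
  meas past e := measurable_acc M past e
  indep S r V π := by
    refine (gb_indep M hE (key (valOf S V) (run M (valOf S V) π.1 (st0 r)).1)
      (key_inj _ _)).subset ?_
    intro e he
    have h := (acc_final M hE (valOf S V) π.1 π.2.1 (π.2.2 e) (st0 r)).1
    have he' : acc M (valOf S V) (π.1.takeWhile (fun f => decide (f ≠ e))) e (st0 r) = true := he
    rw [h] at he'
    simp only [good, bv, Bool.and_eq_true, decide_eq_true_eq] at he'
    exact he'.1

/-! The finite counting inequality. -/

omit [DecidableEq α] in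
lemma opt_le_bv (M : Matroid α) (hE : M.E = univ) (val : α → Bool → ℝ≥0) (x : α → Bool) :
    opt M (fun e => val e (x e)) ≤
      ∑ e, if bv M val x e = true then (val e (x e) : ℝ≥0∞) else 0 := by
  unfold opt
  refine iSup₂_le fun I hI => ?_
  refine (gb_opt M hE (key val x) (fun e => (val e (x e) : ℝ≥0∞)) ?_ I hI).trans (le_of_eq ?_)
  · intro a b hab
    have := Prod.Lex.lt_iff.1 hab
    simp only [key, ofLex_toLex] at this
    exact_mod_cast (this.elim le_of_lt (fun h => le_of_eq h.1))
  · rw [Finset.sum_filter]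
    simp [bv]

omit [Fintype α] in
lemma sum_coin [Fintype α] (e : α) (a : ℝ≥0∞) :
    ∑ _c : α → Bool, a = 2 * ∑ c : α → Bool, if c e = true then a else 0 := by
  have hinv : Function.Involutive (fun c : α → Bool => flip c e) := fun c => flip_flip c e
  have h1 : ∑ c : α → Bool, (if c e = true then a else 0) =
      ∑ c : α → Bool, (if flip c e e = true then a else 0) :=
    (Equiv.sum_comp hinv.toPerm (fun c => if c e = true then a else 0)).symm
  rw [two_mul]
  nth_rewrite 2 [h1]
  rw [← Finset.sum_add_distrib]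
  refine Finset.sum_congr rfl fun c _ => ?_
  rw [flip_self]
  cases c e <;> simp

lemma count_ineq (M : Matroid α) (hE : M.E = univ) (val : α → Bool → ℝ≥0) (π : Order α) :
    ∑ ω : α → Bool, ∑ _c : α → Bool, opt M (fun e => sw val ω e true) ≤
      2 * ∑ ω : α → Bool, ∑ c : α → Bool, ∑ e, if acc M (sw val ω) (before π e) e (st0 c) = true
        then (sw val ω e true : ℝ≥0∞) else 0 := by
  set F : St α → ℝ≥0∞ := fun st => ∑ e, if good M val st e = true then (val e (st.1 e) : ℝ≥0∞)
    else 0 with hF
  have h1 : ∀ ω c : α → Bool, (∑ e, if acc M (sw val ω) (before π e) e (st0 c) = true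
        then (sw val ω e true : ℝ≥0∞) else 0) = F (run M val π.1 (ω, c)) := by
    intro ω c
    refine Finset.sum_congr rfl fun e _ => ?_
    have ht : tr ω (st0 c) = (ω, c) := by simp [tr, st0]
    rw [acc_sw, ht]
    obtain ⟨a1, a2⟩ := acc_final M hE val π.1 π.2.1 (π.2.2 e) (ω, c)
    unfold before
    rw [a1]
    split_ifs with h
    · rw [a2 h]; simp [sw]
    · rfl
  simp_rw [h1]
  rw [← Fintype.sum_prod_type' (f := fun ω c => F (run M val π.1 (ω, c)))]
  have h2 : ∑ p : St α, F (run M val π.1 (p.1, p.2)) = ∑ p : St α, F p :=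
    (run_bij M hE val π.1).sum_comp F
  rw [h2, Fintype.sum_prod_type]
  have hneg : Function.Involutive (fun x : α → Bool => fun e => !x e) := fun x => by simp
  rw [← hneg.bijective.sum_comp, Finset.mul_sum]
  refine Finset.sum_le_sum fun x _ => ?_
  have h3 : (fun e => sw val (fun e => !x e) e true) = fun e => val e (x e) := by
    funext e; simp [sw]
  rw [h3]
  refine (Finset.sum_le_sum fun c _ => opt_le_bv M hE val x).trans (le_of_eq ?_)
  rw [Finset.sum_comm, hF]
  simp only []
  rw [Finset.sum_comm (f := fun c e => if good M val (x, c) e = true then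
    (val e (x e) : ℝ≥0∞) else 0), Finset.mul_sum]
  refine Finset.sum_congr rfl fun e _ => ?_
  rw [sum_coin e]
  congr 1
  refine Finset.sum_congr rfl fun c _ => ?_
  cases h4 : bv M val x e <;> cases h5 : c e <;> simp [good, h4, h5]

/-! Transfer to the measure-theoretic statement. -/

def swp (ω : α → Bool) (p : (α → ℝ≥0) × (α → ℝ≥0)) : (α → ℝ≥0) × (α → ℝ≥0) :=
  (fun e => if ω e then p.2 e else p.1 e, fun e => if ω e then p.1 e else p.2 e)

omit [DecidableEq α] in
lemma swp_mp (D : α → Measure ℝ≥0) [∀ e, IsProbabilityMeasure (D e)] (ω : α → Bool) :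
    MeasurePreserving (swp ω) ((Measure.pi D).prod (Measure.pi D))
      ((Measure.pi D).prod (Measure.pi D)) := by
  have h1 := measurePreserving_arrowProdEquivProdArrow ℝ≥0 ℝ≥0 α D D
  have h2 : MeasurePreserving (fun (q : α → ℝ≥0 × ℝ≥0) e => if ω e then (q e).swap else q e)
      (Measure.pi fun e => (D e).prod (D e)) (Measure.pi fun e => (D e).prod (D e)) := by
    refine measurePreserving_pi (f := fun e (y : ℝ≥0 × ℝ≥0) => if ω e then y.swap else y) _ _ ?_
    intro e
    cases ω e
    · exact MeasurePreserving.id _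
    · simpa using Measure.measurePreserving_swap
  have h3 := (h1.comp h2).comp (h1.symm _)
  convert h3 using 1
  funext p
  ext e <;> cases h : ω e <;>
    simp [swp, h, MeasurableEquiv.arrowProdEquivProdArrow, Equiv.arrowProdEquivProdArrow]

omit [Fintype α] [DecidableEq α] in
lemma valOf_swp (ω : α → Bool) (p : (α → ℝ≥0) × (α → ℝ≥0)) :
    valOf (swp ω p).1 (swp ω p).2 = sw (valOf p.1 p.2) ω := by
  funext e b
  cases b <;> cases h : ω e <;> simp [valOf, swp, sw, h]

omit [DecidableEq α] in
lemma measurable_opt (M : Matroid α) : Measurable (opt M) := by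
  unfold opt
  refine Measurable.iSup fun I => Measurable.iSup fun _ => ?_
  fun_prop

instance : Countable (Order α) := by unfold Order; infer_instance

instance : MeasurableSingletonClass (Order α) := ⟨fun _ => trivial⟩

lemma measurable_reward {Ω : Type} [MeasurableSpace Ω] {M : Matroid α} (R : Rule M Ω)
    {π : ((α → ℝ≥0) × (α → ℝ≥0)) × Ω → Order α} (hπ : Measurable π) :
    Measurable fun p : ((α → ℝ≥0) × (α → ℝ≥0)) × Ω => reward R p.1.1 p.1.2 p.2 (π p) := by
  refine measurable_comp_countable hπ (G := fun t p => reward R p.1.1 p.1.2 p.2 t) ?_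
  intro t
  simp only [reward, Finset.sum_filter]
  refine Finset.measurable_sum _ fun e _ => ?_
  refine Measurable.ite ?_ (by fun_prop) measurable_const
  exact (R.meas (before t e) e) (measurableSet_singleton true)

def mm (q : (α → ℝ≥0) × (α → ℝ≥0)) : (α → ℝ≥0) × (α → ℝ≥0) :=
  (fun e => min (q.1 e) (q.2 e), fun e => max (q.1 e) (q.2 e))

omit [DecidableEq α] in
lemma measurable_mm : Measurable (mm (α := α)) := by
  unfold mm; fun_prop

omit [Fintype α] [DecidableEq α] in
lemma mm_swp (ω : α → Bool) (q : (α → ℝ≥0) × (α → ℝ≥0)) : mm (swp ω q) = mm q := by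
  ext e <;> cases h : ω e <;> simp [mm, swp, h, min_comm, max_comm]

omit [Fintype α] [DecidableEq α] in
lemma swp_snd (ω : α → Bool) (q : (α → ℝ≥0) × (α → ℝ≥0)) :
    (swp ω q).2 = fun e => sw (valOf q.1 q.2) ω e true := by
  funext e
  cases h : ω e <;> simp [swp, sw, valOf, h]

lemma avg_swp (D : α → Measure ℝ≥0) [∀ e, IsProbabilityMeasure (D e)]
    (F : (α → ℝ≥0) × (α → ℝ≥0) → ℝ≥0∞) (hF : Measurable F) :
    (Fintype.card (α → Bool) : ℝ≥0∞) * ∫⁻ q, F q ∂((Measure.pi D).prod (Measure.pi D)) =
      ∫⁻ q, ∑ ω : α → Bool, F (swp ω q) ∂((Measure.pi D).prod (Measure.pi D)) := by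
  rw [lintegral_finset_sum (f := fun ω q => F (swp ω q)) _
    (fun ω _ => hF.comp (swp_mp D ω).measurable)]
  rw [Finset.sum_congr rfl (fun ω _ => (swp_mp D ω).lintegral_comp hF)]
  simp

lemma lintegral_unif {X : Type} [MeasurableSpace X] (ν : Measure X) [SFinite ν]
    (F : X × (α → Bool) → ℝ≥0∞) (hF : Measurable F) :
    ∫⁻ p, F p ∂(ν.prod (PMF.uniformOfFintype (α → Bool)).toMeasure) =
      (Fintype.card (α → Bool) : ℝ≥0∞)⁻¹ * ∫⁻ q, ∑ c : α → Bool, F (q, c) ∂ν := by
  have hWm : Measurable fun q => ∑ c : α → Bool, F (q, c) := Finset.measurable_sum _ fun c _ =>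
    hF.comp (measurable_id.prodMk measurable_const)
  rw [lintegral_prod _ hF.aemeasurable, ← lintegral_const_mul _ hWm]
  refine lintegral_congr fun q => ?_
  rw [lintegral_fintype, Finset.mul_sum]
  refine Finset.sum_congr rfl fun c _ => ?_
  rw [PMF.toMeasure_apply_singleton _ _ (measurableSet_singleton _), PMF.uniformOfFintype_apply,
    mul_comm]

lemma pointwise (M : Matroid α) (hE : M.E = univ) (π : Order α) (q : (α → ℝ≥0) × (α → ℝ≥0)) :
    (Fintype.card (α → Bool) : ℝ≥0∞) * ∑ ω : α → Bool, opt M (swp ω q).2 ≤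
      2 * ∑ ω : α → Bool, ∑ c : α → Bool, reward (rule M hE) (swp ω q).1 (swp ω q).2 c π := by
  have hc := count_ineq M hE (valOf q.1 q.2) π
  refine le_trans (le_of_eq ?_) (hc.trans (le_of_eq ?_))
  · simp only [Finset.mul_sum, swp_snd]
    refine Finset.sum_congr rfl fun ω _ => ?_
    simp
  · congr 1
    refine Finset.sum_congr rfl fun ω _ => ?_
    refine Finset.sum_congr rfl fun c _ => ?_
    simp only [reward, Finset.sum_filter, rule, valOf_swp]
    rw [swp_snd]

lemma abstract_main (D : α → Measure ℝ≥0) [∀ e, IsProbabilityMeasure (D e)]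
    (O : (α → ℝ≥0) → ℝ≥0∞) (hO : Measurable O)
    (F : ((α → ℝ≥0) × (α → ℝ≥0)) × (α → Bool) → ℝ≥0∞) (hF : Measurable F)
    (hpt : ∀ q, (Fintype.card (α → Bool) : ℝ≥0∞) * ∑ ω : α → Bool, O (swp ω q).2 ≤
      2 * ∑ ω : α → Bool, ∑ c : α → Bool, F (swp ω q, c)) :
    (1 / 2 : ℝ≥0∞) * ∫⁻ V, O V ∂(Measure.pi D) ≤
      ∫⁻ p, F p
        ∂(((Measure.pi D).prod (Measure.pi D)).prod (PMF.uniformOfFintype (α → Bool)).toMeasure) := by
  have hN0 : (Fintype.card (α → Bool) : ℝ≥0∞) ≠ 0 := by simp
  have hNt : (Fintype.card (α → Bool) : ℝ≥0∞) ≠ ⊤ := by simp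
  rw [lintegral_unif _ _ hF]
  have hWm : Measurable fun q : (α → ℝ≥0) × (α → ℝ≥0) => ∑ c : α → Bool, F (q, c) :=
    Finset.measurable_sum _ fun c _ => hF.comp (measurable_id.prodMk measurable_const)
  have hO' : ∫⁻ V, O V ∂(Measure.pi D) = ∫⁻ q, O q.2 ∂((Measure.pi D).prod (Measure.pi D)) :=
    (measurePreserving_snd.lintegral_comp hO).symm
  have hOm : Measurable fun q : (α → ℝ≥0) × (α → ℝ≥0) => O q.2 := hO.comp measurable_snd
  have a1 := avg_swp D _ hOm
  have a2 := avg_swp D _ hWm
  rw [hO']
  have main : (Fintype.card (α → Bool) : ℝ≥0∞) * ((Fintype.card (α → Bool) : ℝ≥0∞) *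
      ∫⁻ q, O q.2 ∂((Measure.pi D).prod (Measure.pi D))) ≤
      2 * ((Fintype.card (α → Bool) : ℝ≥0∞) *
        ∫⁻ q, ∑ c : α → Bool, F (q, c) ∂((Measure.pi D).prod (Measure.pi D))) := by
    rw [a1, a2, ← lintegral_const_mul' _ _ hNt,
      ← lintegral_const_mul' _ _ (by simp : (2 : ℝ≥0∞) ≠ ⊤)]
    exact lintegral_mono fun q => hpt q
  clear a1 a2 hpt
  generalize (Fintype.card (α → Bool) : ℝ≥0∞) = N at *
  generalize ∫⁻ q, O q.2 ∂((Measure.pi D).prod (Measure.pi D)) = A at *
  generalize ∫⁻ q, ∑ c : α → Bool, F (q, c) ∂((Measure.pi D).prod (Measure.pi D)) = B at *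
  have m2 : N * A ≤ 2 * B := by
    rw [mul_left_comm 2 N] at main
    exact (ENNReal.mul_le_mul_iff_right hN0 hNt).1 main
  calc (1 / 2 : ℝ≥0∞) * A
      = N⁻¹ * ((1 / 2) * (N * A)) := by
        rw [mul_left_comm (1 / 2 : ℝ≥0∞) N, ← mul_assoc, ENNReal.inv_mul_cancel hN0 hNt, one_mul]
    _ ≤ N⁻¹ * ((1 / 2) * (2 * B)) := by gcongr
    _ = N⁻¹ * B := by
        rw [← mul_assoc (1 / 2 : ℝ≥0∞) 2, one_div, ENNReal.inv_mul_cancel (by simp) (by simp),
          one_mul]

theorem fixed_order (M : Matroid α) (hE : M.E = univ) (D : α → Measure ℝ≥0)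
    [∀ e, IsProbabilityMeasure (D e)] (g : (α → ℝ≥0) × (α → ℝ≥0) → Order α) (hg : Measurable g) :
    (1 / 2 : ℝ≥0∞) * ∫⁻ V, opt M V ∂(Measure.pi D) ≤
      ∫⁻ p, reward (rule M hE) p.1.1 p.1.2 p.2 (g (mm p.1))
        ∂(((Measure.pi D).prod (Measure.pi D)).prod (PMF.uniformOfFintype (α → Bool)).toMeasure) := by
  have hπ : Measurable fun p : ((α → ℝ≥0) × (α → ℝ≥0)) × (α → Bool) => g (mm p.1) :=
    hg.comp (measurable_mm.comp measurable_fst)
  refine abstract_main D (opt M) (measurable_opt M) _ (measurable_reward (rule M hE) hπ) ?_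
  intro q
  simp only [mm_swp]
  exact pointwise M hE (g (mm q)) q

end Vale.Agent.P331
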